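import Vale.Agent.P197.Defs
import Vale.Agent.P197.Final

namespace Vale.Agent.Results.P197.Saxl

open Vale.Agent.P197

/-- Saxl's conjecture: every Specht module `S^ν`, `ν ⊢ m(m+1)/2`, occurs in the tensor square
of the staircase Specht module. -/
theorem result : ∀ m : ℕ, 1 ≤ m → ∀ ν : YoungDiagram, ν.card = m * (m + 1) / 2 →
    0 < kronecker (m * (m + 1) / 2) (staircase m) (staircase m) ν :=
  fun m _ ν hν => saxl m ν hν

end Vale.Agent.Results.P197.Saxl
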